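import Vale.Agent.Lib.P240.Main

namespace Vale.Agent.Results.P240.A_alternating_blocks

open Vale.Agent.Lib.P240

/-- Let `G` be a permutation group on a finite set `Ω` permuting the fibres (blocks) of a map `B`,
containing all even permutations supported on a single block, with no block of size `1`, `2`, `4`.
Then the order complex of the poset of nonidentity elementary abelian `2`-subgroups of `G` has
nonzero reduced homology with coefficients in the field with three elements. -/
theorem result {Ω ι : Type*} [Fintype Ω] [DecidableEq Ω] (G : Subgroup (Equiv.Perm Ω)) (B : Ω → ι)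
    (hB : ∀ g ∈ G, ∀ x y, B x = B y → B (g x) = B (g y))
    (hAlt : ∀ (i : ι) (g : Equiv.Perm Ω), Equiv.Perm.sign g = 1 → (∀ x, g x ≠ x → B x = i) → g ∈ G)
    (hsize : ∀ x : Ω, Nat.card {y // B y = B x} ≠ 1 ∧ Nat.card {y // B y = B x} ≠ 2 ∧
      Nat.card {y // B y = B x} ≠ 4) :
    ¬ ReducedAcyclic (ZMod 3) (QuillenPoset G 2) :=
  main_alt G B hB hAlt hsize

end Vale.Agent.Results.P240.A_alternating_blocks
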