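import Vale.Agent.Lib.P240.Main

namespace Vale.Agent.Results.P240.B_covered_blocks

open Vale.Agent.Lib.P240

/-- Let `q ≠ r` be odd primes and let `G` be a permutation group on a finite set `Ω` permuting the
fibres (blocks) of a map `B`, every block being covered in the sense of `CoveredBlock`.  Then the
order complex of the poset of nonidentity elementary abelian `2`-subgroups of `G` has nonzero
reduced homology with coefficients in the field with `q` elements. -/
theorem result {Ω ι : Type*} [Fintype Ω] [DecidableEq Ω] (G : Subgroup (Equiv.Perm Ω)) (B : Ω → ι)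
    (hB : ∀ g ∈ G, ∀ x y, B x = B y → B (g x) = B (g y)) {q r : ℕ} (hq : q.Prime) (hr : r.Prime)
    (hq2 : q ≠ 2) (hr2 : r ≠ 2) (hqr : q ≠ r) (H : ∀ x : Ω, CoveredBlock q r G B (B x)) :
    ¬ ReducedAcyclic (ZMod q) (QuillenPoset G 2) :=
  main_general G B hB hq hr hq2 hr2 hqr H

end Vale.Agent.Results.P240.B_covered_blocks
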